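import Mathlib
import Vale.Agent.P028EV.Result

namespace Vale.Agent.Results.P028.ErdosVaaler

open MeasureTheory

theorem result (γ : ℝ) (ψ : ℕ → ℝ) (hψ : ∀ q, 0 ≤ ψ q) (C : ℝ) (hC : 0 < C)
    (hdiv : ¬ Summable (fun q : ℕ => (Nat.totient q : ℝ) / q * min (ψ q) (C / q))) :
    volume {x : ℝ | {q : ℕ | 1 ≤ q ∧ ∃ a : ℤ, |(q : ℝ) * x - a - γ| < ψ q}.Infinite}ᶜ = 0 := by
  have h := Vale.Agent.P028EV.erdos_vaaler γ (fun q => min (ψ q) (C / q))
    (fun q => le_min (hψ q) (div_nonneg hC.le (Nat.cast_nonneg q))) C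
    (fun q _ => min_le_right _ _) hdiv
  refine measure_mono_null ?_ h
  intro x hx
  simp only [Set.mem_compl_iff, Set.mem_setOf_eq] at hx ⊢
  intro hinf
  exact hx (hinf.mono (fun q hq => by
    obtain ⟨hq1, a, ha⟩ := hq
    exact ⟨hq1, a, ha.trans_le (min_le_left _ _)⟩))

end Vale.Agent.Results.P028.ErdosVaaler
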