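import Mathlib
import Vale.Agent.P028KM.RES

namespace Vale.Agent.Results.P028.NonLiouville

open MeasureTheory

theorem result (γ : ℝ) (h1 : Irrational γ) (h2 : ¬ Liouville γ) (ψ : ℕ → ℝ) (hψ : ∀ q, 0 ≤ ψ q)
    (ε : ℝ) (hε : 0 < ε)
    (hdiv : ¬ Summable (fun q : ℕ => (Nat.totient q : ℝ) / q * min (ψ q) ((q : ℝ) ^ (-ε)))) :
    volume {x : ℝ | {q : ℕ | 1 ≤ q ∧ ∃ a : ℤ, |(q : ℝ) * x - a - γ| < ψ q}.Infinite}ᶜ = 0 :=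
  Vale.Agent.P028KM.main γ h1 h2 ψ hψ ε hε hdiv

end Vale.Agent.Results.P028.NonLiouville
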